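import Vale.Agent.P159.Bdl.B8

set_option linter.all false

/-!
# The inequality of Messager and Miracle-Sole for plane rotators
-/

open MeasureTheory Filter Topology

namespace Vale.Agent.P159.T1.H831

open Vale.Agent.P159.XY
open Vale.Agent.P159 (box nn)

section Abs

variable {G : Type*} [AddCommGroup G] [TopologicalSpace G] [IsTopologicalAddGroup G]
  [CompactSpace G] [MeasurableSpace G] [BorelSpace G] [SecondCountableTopology G]
  {μ : Measure G} [μ.IsAddHaarMeasure] [IsProbabilityMeasure μ]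
  {V : Type*} [Fintype V]

/-- positivity for products of cosines of characters and monomials -/
theorem pos_char_mono {ι : Type*} [Fintype ι] (J : ι → ℝ) (hJ : ∀ i, 0 ≤ J i)
    {k0 : G → XY.T} (hk0 : IsChar k0) {k : ι → G → XY.T} (hk : ∀ i, IsChar (k i))
    {m0 : (V → XY.T) → ℝ} (hm0 : IsMono m0) (hm0c : Continuous m0)
    {m : ι → (V → XY.T) → ℝ} (hm : ∀ i, IsMono (m i)) (hmc : ∀ i, Continuous (m i)) :
    0 ≤ ∫ p : G × (V → XY.T), ct (k0 p.1) * m0 p.2
      * Real.exp (∑ i, J i * (ct (k i p.1) * m i p.2)) ∂(μ.prod (haarV V)) := by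
  have hk0c := hk0.cont
  have hkc := fun i => (hk i).cont
  refine pos_exp (μ := μ.prod (haarV V)) J hJ
    (fun p : G × (V → XY.T) => ct (k0 p.1) * m0 p.2)
    (fun i p => ct (k i p.1) * m i p.2) (by fun_prop)
    (by intro i; have h1 := hkc i; have h2 := hmc i; fun_prop) ?_
  intro l
  have e : ∀ p : G × (V → XY.T), ct (k0 p.1) * m0 p.2
      * (l.map (fun i => ct (k i p.1) * m i p.2)).prod
      = (ct (k0 p.1) * (l.map (fun i => ct (k i p.1))).prod)
        * (m0 p.2 * (l.map (fun i => m i p.2)).prod) := by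
    intro p
    rw [List.prod_map_mul]; ring
  simp_rw [e]
  rw [integral_prod_mul (fun x => ct (k0 x) * (l.map (fun i => ct (k i x))).prod)
    (fun y => m0 y * (l.map (fun i => m i y)).prod)]
  exact mul_nonneg (integral_ct_prod_nonneg hk l k0 hk0)
    (hm0.mul (IsMono.list_prod hm l)).integral_nonneg

end Abs

/-- surjective continuous homomorphisms out of a product preserve the Haar measures -/
theorem mp_abs {G H L : Type*} [AddCommGroup G] [TopologicalSpace G] [IsTopologicalAddGroup G]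
    [CompactSpace G] [MeasurableSpace G] [BorelSpace G] [SecondCountableTopology G]
    [AddCommGroup H] [TopologicalSpace H] [IsTopologicalAddGroup H]
    [CompactSpace H] [MeasurableSpace H] [BorelSpace H] [SecondCountableTopology H]
    [AddCommGroup L] [TopologicalSpace L] [IsTopologicalAddGroup L]
    [CompactSpace L] [MeasurableSpace L] [BorelSpace L] [SecondCountableTopology L]
    {μ : Measure G} [μ.IsAddHaarMeasure] [IsProbabilityMeasure μ]
    {ν : Measure H} [ν.IsAddHaarMeasure] [IsProbabilityMeasure ν]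
    {ρ : Measure L} [ρ.IsAddHaarMeasure] [IsProbabilityMeasure ρ]
    (Φ : G × H →+ L) (hc : Continuous Φ) (hs : Function.Surjective Φ) :
    MeasurePreserving Φ (μ.prod ν) ρ :=
  AddMonoidHom.measurePreserving (μ := μ.prod ν) (ν := ρ) (f := Φ) hc hs (by simp)

section Finite

variable {I K : Type*} [Fintype I] [Fintype K]

/-- rotated variables -/
noncomputable def rot (p : (I ⊕ K → XY.T) × (I → XY.T)) : (I ⊕ I) ⊕ K → XY.T
  | Sum.inl (Sum.inl i) => p.1 (Sum.inl i) + p.2 i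
  | Sum.inl (Sum.inr i) => p.1 (Sum.inl i) - p.2 i
  | Sum.inr k => p.1 (Sum.inr k)

/-- extension of the second variable by zero on `K` -/
noncomputable def bt (u : I ⊕ K) (β : I → XY.T) : XY.T := Sum.elim β (fun _ => 0) u

theorem continuous_bt (u : I ⊕ K) : Continuous (bt u) := by
  rcases u with i | k
  · exact continuous_apply i
  · exact continuous_const

theorem continuous_rot : Continuous (rot : (I ⊕ K → XY.T) × (I → XY.T) → _) := by
  refine continuous_pi fun u => ?_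
  rcases u with (i | i) | k
  · change Continuous fun p : (I ⊕ K → XY.T) × (I → XY.T) => p.1 (Sum.inl i) + p.2 i
    fun_prop
  · change Continuous fun p : (I ⊕ K → XY.T) × (I → XY.T) => p.1 (Sum.inl i) - p.2 i
    fun_prop
  · change Continuous fun p : (I ⊕ K → XY.T) × (I → XY.T) => p.1 (Sum.inr k)
    fun_prop

theorem measurePreserving_rot :
    MeasurePreserving (rot : (I ⊕ K → XY.T) × (I → XY.T) → _)
      ((haarV (I ⊕ K)).prod (haarV I)) (haarV ((I ⊕ I) ⊕ K)) := by
  let Φ : ((I ⊕ K → XY.T) × (I → XY.T)) →+ ((I ⊕ I) ⊕ K → XY.T) :=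
    { toFun := rot
      map_zero' := by
        funext u
        rcases u with (i | i) | k <;> simp [rot]
      map_add' := fun p q => by
        funext u
        rcases u with (i | i) | k <;>
          simp only [rot, Prod.fst_add, Prod.snd_add, Pi.add_apply] <;> abel }
  have hc : Continuous Φ := continuous_rot
  have hs : Function.Surjective Φ := by
    intro θ
    choose h hh using fun i : I => exists_half (θ (Sum.inl (Sum.inl i)) + θ (Sum.inl (Sum.inr i)))
    refine ⟨(Sum.elim h (fun k => θ (Sum.inr k)), fun i => θ (Sum.inl (Sum.inl i)) - h i), ?_⟩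
    funext u
    rcases u with (i | i) | k
    · change h i + (θ (Sum.inl (Sum.inl i)) - h i) = θ (Sum.inl (Sum.inl i))
      abel
    · change h i - (θ (Sum.inl (Sum.inl i)) - h i) = θ (Sum.inl (Sum.inr i))
      have h1 : h i - (θ (Sum.inl (Sum.inl i)) - h i) = (h i + h i) - θ (Sum.inl (Sum.inl i)) := by
        abel
      rw [h1, hh i]
      abel
    · rfl
  exact mp_abs (μ := haarV (I ⊕ K)) (ν := haarV I) (ρ := haarV ((I ⊕ I) ⊕ K)) Φ hc hs

/-- couplings of the rotated model -/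
noncomputable def cJ (J : ((I ⊕ I) ⊕ K) → ((I ⊕ I) ⊕ K) → ℝ) : (I ⊕ K) → (I ⊕ K) → ℝ
  | Sum.inl i, Sum.inl j => 2 * J (Sum.inl (Sum.inl i)) (Sum.inl (Sum.inl j))
  | Sum.inl i, Sum.inr k => 2 * J (Sum.inl (Sum.inl i)) (Sum.inr k)
  | Sum.inr k, Sum.inl i => 2 * J (Sum.inr k) (Sum.inl (Sum.inl i))
  | Sum.inr k, Sum.inr l => J (Sum.inr k) (Sum.inr l)

/-- energy of the rotated model -/
noncomputable def rotE (c : (I ⊕ K) → (I ⊕ K) → ℝ) (p : (I ⊕ K → XY.T) × (I → XY.T)) : ℝ :=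
  ∑ u, ∑ v, c u v * (ct (p.1 u - p.1 v) * ct (bt u p.2 - bt v p.2))

theorem ct_two (a b c : XY.T) : ct (a + b) + ct (a - b) = 2 * (ct a * ct b) := by
  rw [ct_add, ct_sub]; ring

theorem energy_rot {J : ((I ⊕ I) ⊕ K) → ((I ⊕ I) ⊕ K) → ℝ}
    (h1 : ∀ i j, J (Sum.inl (Sum.inr i)) (Sum.inl (Sum.inr j))
      = J (Sum.inl (Sum.inl i)) (Sum.inl (Sum.inl j)))
    (h2 : ∀ i j, J (Sum.inl (Sum.inl i)) (Sum.inl (Sum.inr j)) = 0)
    (h2' : ∀ i j, J (Sum.inl (Sum.inr i)) (Sum.inl (Sum.inl j)) = 0)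
    (h3 : ∀ i k, J (Sum.inl (Sum.inr i)) (Sum.inr k) = J (Sum.inl (Sum.inl i)) (Sum.inr k))
    (h3' : ∀ i k, J (Sum.inr k) (Sum.inl (Sum.inr i)) = J (Sum.inr k) (Sum.inl (Sum.inl i)))
    (p : (I ⊕ K → XY.T) × (I → XY.T)) : energy J (rot p) = rotE (cJ J) p := by
  unfold energy rotE
  simp only [Fintype.sum_sum_type, rot, cJ, bt, Sum.elim_inl, Sum.elim_inr, h1, h2, h2', h3, h3',
    zero_mul, Finset.sum_const_zero, add_zero, zero_add, sub_self, sub_zero, zero_sub, ct_neg,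
    ct_zero, mul_one, Finset.sum_add_distrib]
  have e1 : ∀ i j : I, J (Sum.inl (Sum.inl i)) (Sum.inl (Sum.inl j))
        * ct (p.1 (Sum.inl i) + p.2 i - (p.1 (Sum.inl j) + p.2 j))
      + J (Sum.inl (Sum.inl i)) (Sum.inl (Sum.inl j))
        * ct (p.1 (Sum.inl i) - p.2 i - (p.1 (Sum.inl j) - p.2 j))
      = 2 * J (Sum.inl (Sum.inl i)) (Sum.inl (Sum.inl j))
        * (ct (p.1 (Sum.inl i) - p.1 (Sum.inl j)) * ct (p.2 i - p.2 j)) := by
    intro i j
    have a1 : p.1 (Sum.inl i) + p.2 i - (p.1 (Sum.inl j) + p.2 j)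
      = (p.1 (Sum.inl i) - p.1 (Sum.inl j)) + (p.2 i - p.2 j) := by abel
    have a2 : p.1 (Sum.inl i) - p.2 i - (p.1 (Sum.inl j) - p.2 j)
      = (p.1 (Sum.inl i) - p.1 (Sum.inl j)) - (p.2 i - p.2 j) := by abel
    rw [a1, a2, ← mul_add, ct_two _ _ 0]; ring
  have e2 : ∀ (i : I) (k : K), J (Sum.inl (Sum.inl i)) (Sum.inr k)
        * ct (p.1 (Sum.inl i) + p.2 i - p.1 (Sum.inr k))
      + J (Sum.inl (Sum.inl i)) (Sum.inr k)
        * ct (p.1 (Sum.inl i) - p.2 i - p.1 (Sum.inr k))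
      = 2 * J (Sum.inl (Sum.inl i)) (Sum.inr k)
        * (ct (p.1 (Sum.inl i) - p.1 (Sum.inr k)) * ct (p.2 i)) := by
    intro i k
    have a1 : p.1 (Sum.inl i) + p.2 i - p.1 (Sum.inr k)
      = (p.1 (Sum.inl i) - p.1 (Sum.inr k)) + p.2 i := by abel
    have a2 : p.1 (Sum.inl i) - p.2 i - p.1 (Sum.inr k)
      = (p.1 (Sum.inl i) - p.1 (Sum.inr k)) - p.2 i := by abel
    rw [a1, a2, ← mul_add, ct_two _ _ 0]; ring
  have e3 : ∀ (k : K) (i : I), J (Sum.inr k) (Sum.inl (Sum.inl i))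
        * ct (p.1 (Sum.inr k) - (p.1 (Sum.inl i) + p.2 i))
      + J (Sum.inr k) (Sum.inl (Sum.inl i))
        * ct (p.1 (Sum.inr k) - (p.1 (Sum.inl i) - p.2 i))
      = 2 * J (Sum.inr k) (Sum.inl (Sum.inl i))
        * (ct (p.1 (Sum.inr k) - p.1 (Sum.inl i)) * ct (p.2 i)) := by
    intro k i
    have a1 : p.1 (Sum.inr k) - (p.1 (Sum.inl i) + p.2 i)
      = (p.1 (Sum.inr k) - p.1 (Sum.inl i)) - p.2 i := by abel
    have a2 : p.1 (Sum.inr k) - (p.1 (Sum.inl i) - p.2 i)
      = (p.1 (Sum.inr k) - p.1 (Sum.inl i)) + p.2 i := by abel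
    rw [a1, a2, add_comm, ← mul_add, ct_two _ _ 0]; ring
  simp only [← e1, ← e2, ← e3, Finset.sum_add_distrib]
  ring

theorem continuous_rotE (c : (I ⊕ K) → (I ⊕ K) → ℝ) : Continuous (rotE c) := by
  unfold rotE
  have hb := fun u : I ⊕ K => continuous_bt u
  fun_prop

theorem isMono_ct_bt (u : I ⊕ K) : IsMono (fun β : I → XY.T => ct (bt u β)) := by
  classical
  rcases u with i | k
  · exact IsMono.ct i
  · simp only [bt, Sum.elim_inr, ct_zero]; exact IsMono.one

theorem isMono_st_bt (u : I ⊕ K) : IsMono (fun β : I → XY.T => st (bt u β)) := by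
  classical
  rcases u with i | k
  · exact IsMono.st i
  · simp only [bt, Sum.elim_inr, st_zero]; exact IsMono.zero

theorem rotE_neg (c : (I ⊕ K) → (I ⊕ K) → ℝ) (a : I ⊕ K → XY.T) (β : I → XY.T) :
    rotE c (-a, β) = rotE c (a, β) := by
  unfold rotE
  refine Finset.sum_congr rfl fun u _ => Finset.sum_congr rfl fun v _ => ?_
  simp only [Pi.neg_apply]
  have : -a u - -a v = -(a u - a v) := by abel
  rw [this, ct_neg]

/-- the part of the difference which vanishes -/
theorem integral_st_part (c : (I ⊕ K) → (I ⊕ K) → ℝ) (o x : I) :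
    ∫ p : (I ⊕ K → XY.T) × (I → XY.T), st (p.1 (Sum.inl o) - p.1 (Sum.inl x))
      * (ct (p.2 o) * st (p.2 x) * Real.exp (rotE c p)) ∂((haarV (I ⊕ K)).prod (haarV I)) = 0 := by
  have hE := continuous_rotE c
  rw [integral_prod_symm]
  · have : ∀ β : I → XY.T, ∫ a : I ⊕ K → XY.T, st (a (Sum.inl o) - a (Sum.inl x))
      * (ct (β o) * st (β x) * Real.exp (rotE c (a, β))) ∂(haarV (I ⊕ K)) = 0 := by
      intro β
      refine integral_st_char_mul (μ := haarV (I ⊕ K))
        (isChar_diff (Sum.inl o : I ⊕ K) (Sum.inl x))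
        (W := fun a => ct (β o) * st (β x) * Real.exp (rotE c (a, β))) ?_
      intro a
      simp only [rotE_neg]
    simp only [this, integral_zero]
  · apply integrable_of_continuous
    fun_prop

/-- the part of the difference which is nonnegative -/
theorem integral_ct_part {c : (I ⊕ K) → (I ⊕ K) → ℝ} (hc : ∀ u v, 0 ≤ c u v) (o x : I) :
    0 ≤ ∫ p : (I ⊕ K → XY.T) × (I → XY.T), ct (p.1 (Sum.inl o) - p.1 (Sum.inl x))
      * (st (p.2 o) * st (p.2 x)) * Real.exp (rotE c p) ∂((haarV (I ⊕ K)).prod (haarV I)) := by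
  classical
  let m : ((I ⊕ K) × (I ⊕ K)) × Bool → (I → XY.T) → ℝ := fun i β =>
    if i.2 then ct (bt i.1.1 β) * ct (bt i.1.2 β) else st (bt i.1.1 β) * st (bt i.1.2 β)
  have hcb := fun u : I ⊕ K => continuous_bt u
  have hmc : ∀ i, Continuous (m i) := by
    intro i
    rcases i with ⟨e, s⟩
    have h1 := hcb e.1
    have h2 := hcb e.2
    cases s
    · change Continuous fun β : I → XY.T => st (bt e.1 β) * st (bt e.2 β); fun_prop
    · change Continuous fun β : I → XY.T => ct (bt e.1 β) * ct (bt e.2 β); fun_prop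
  have hmm : ∀ i, IsMono (m i) := by
    intro i
    rcases i with ⟨e, s⟩
    cases s
    · exact (isMono_st_bt e.1).mul (isMono_st_bt e.2)
    · exact (isMono_ct_bt e.1).mul (isMono_ct_bt e.2)
  have hen : ∀ p : (I ⊕ K → XY.T) × (I → XY.T), rotE c p
      = ∑ i : ((I ⊕ K) × (I ⊕ K)) × Bool, c i.1.1 i.1.2
        * (ct (p.1 i.1.1 - p.1 i.1.2) * m i p.2) := by
    intro p
    unfold rotE
    symm
    rw [Fintype.sum_prod_type, Fintype.sum_prod_type]
    refine Finset.sum_congr rfl fun u _ => Finset.sum_congr rfl fun v _ => ?_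
    rw [Fintype.sum_bool]
    simp only [if_true, Bool.false_eq_true, if_false, ct_sub, m]
    ring
  simp only [hen]
  exact pos_char_mono (μ := haarV (I ⊕ K)) (V := I)
    (fun i : ((I ⊕ K) × (I ⊕ K)) × Bool => c i.1.1 i.1.2) (fun i => hc _ _)
    (k0 := fun a => a (Sum.inl o) - a (Sum.inl x)) (isChar_diff _ _)
    (k := fun i a => a i.1.1 - a i.1.2) (fun i => isChar_diff _ _)
    (m0 := fun β => st (β o) * st (β x)) ((IsMono.st o).mul (IsMono.st x)) (by fun_prop)
    (m := m) hmm hmc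

theorem cJ_nonneg {J : ((I ⊕ I) ⊕ K) → ((I ⊕ I) ⊕ K) → ℝ} (hJ : ∀ u v, 0 ≤ J u v) :
    ∀ u v, 0 ≤ cJ J u v := by
  intro u v
  rcases u with i | k <;> rcases v with j | l <;> simp only [cJ]
  · exact mul_nonneg zero_le_two (hJ _ _)
  · exact mul_nonneg zero_le_two (hJ _ _)
  · exact mul_nonneg zero_le_two (hJ _ _)
  · exact hJ _ _

theorem mms_finite {J : ((I ⊕ I) ⊕ K) → ((I ⊕ I) ⊕ K) → ℝ} (hJ : ∀ u v, 0 ≤ J u v)
    (h1 : ∀ i j, J (Sum.inl (Sum.inr i)) (Sum.inl (Sum.inr j))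
      = J (Sum.inl (Sum.inl i)) (Sum.inl (Sum.inl j)))
    (h2 : ∀ i j, J (Sum.inl (Sum.inl i)) (Sum.inl (Sum.inr j)) = 0)
    (h2' : ∀ i j, J (Sum.inl (Sum.inr i)) (Sum.inl (Sum.inl j)) = 0)
    (h3 : ∀ i k, J (Sum.inl (Sum.inr i)) (Sum.inr k) = J (Sum.inl (Sum.inl i)) (Sum.inr k))
    (h3' : ∀ i k, J (Sum.inr k) (Sum.inl (Sum.inr i)) = J (Sum.inr k) (Sum.inl (Sum.inl i)))
    (o x : I) :
    XY.corr J (Sum.inl (Sum.inl o)) (Sum.inl (Sum.inr x))
      ≤ XY.corr J (Sum.inl (Sum.inl o)) (Sum.inl (Sum.inl x)) := by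
  unfold XY.corr ev
  refine div_le_div_of_nonneg_right ?_ (part_pos J).le
  rw [← sub_nonneg, ← un_sub J (by fun_prop) (by fun_prop)]
  unfold un
  have hmp := measurePreserving_rot (I := I) (K := K)
  have hF : Continuous fun θ : (I ⊕ I) ⊕ K → XY.T =>
      (ct (θ (Sum.inl (Sum.inl o)) - θ (Sum.inl (Sum.inl x)))
        - ct (θ (Sum.inl (Sum.inl o)) - θ (Sum.inl (Sum.inr x))))
      * Real.exp (energy J θ) := by fun_prop
  have hint := integral_map (μ := (haarV (I ⊕ K)).prod (haarV I)) hmp.measurable.aemeasurable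
    (f := fun θ : (I ⊕ I) ⊕ K → XY.T =>
      (ct (θ (Sum.inl (Sum.inl o)) - θ (Sum.inl (Sum.inl x)))
        - ct (θ (Sum.inl (Sum.inl o)) - θ (Sum.inl (Sum.inr x))))
      * Real.exp (energy J θ)) (by
      rw [hmp.map_eq]; exact hF.aestronglyMeasurable)
  rw [hmp.map_eq] at hint
  rw [hint]
  have hE := continuous_rotE (cJ J)
  have e : ∀ p : (I ⊕ K → XY.T) × (I → XY.T),
      (ct (rot p (Sum.inl (Sum.inl o)) - rot p (Sum.inl (Sum.inl x)))
        - ct (rot p (Sum.inl (Sum.inl o)) - rot p (Sum.inl (Sum.inr x))))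
      * Real.exp (energy J (rot p))
      = 2 * (st (p.1 (Sum.inl o) - p.1 (Sum.inl x))
          * (ct (p.2 o) * st (p.2 x) * Real.exp (rotE (cJ J) p)))
        + 2 * (ct (p.1 (Sum.inl o) - p.1 (Sum.inl x))
          * (st (p.2 o) * st (p.2 x)) * Real.exp (rotE (cJ J) p)) := by
    intro p
    rw [energy_rot h1 h2 h2' h3 h3']
    simp only [rot]
    have a1 : p.1 (Sum.inl o) + p.2 o - (p.1 (Sum.inl x) + p.2 x)
      = ((p.1 (Sum.inl o) - p.1 (Sum.inl x)) + p.2 o) - p.2 x := by abel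
    have a2 : p.1 (Sum.inl o) + p.2 o - (p.1 (Sum.inl x) - p.2 x)
      = ((p.1 (Sum.inl o) - p.1 (Sum.inl x)) + p.2 o) + p.2 x := by abel
    rw [a1, a2, ct_sub (p.1 (Sum.inl o) - p.1 (Sum.inl x) + p.2 o) (p.2 x), ct_add (p.1 (Sum.inl o) - p.1 (Sum.inl x) + p.2 o) (p.2 x),
      st_add (p.1 (Sum.inl o) - p.1 (Sum.inl x)) (p.2 o)]
    ring
  simp_rw [e]
  rw [integral_add, integral_const_mul, integral_const_mul, integral_st_part, mul_zero, zero_add]
  · exact mul_nonneg zero_le_two (integral_ct_part (cJ_nonneg hJ) o x)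
  · apply integrable_of_continuous; fun_prop
  · apply integrable_of_continuous; fun_prop

end Finite

/-! ### The square lattice -/

/-- reflection in the line `u.2 - u.1 = k` -/
def rf (k : ℤ) (u : ℤ × ℤ) : ℤ × ℤ := (u.2 - k, u.1 + k)

theorem rf_rf (k : ℤ) (u : ℤ × ℤ) : rf k (rf k u) = u := by
  unfold rf; ext <;> simp

theorem KS_rf {k : ℤ} {S : Finset (ℤ × ℤ)} (hS : ∀ u ∈ S, rf k u ∈ S) {b : ℝ} (hb : 0 ≤ b)
    {o x : ℤ × ℤ} (ho : o ∈ S) (hx : x ∈ S) (hok : 0 < o.2 - o.1 - k) (hxk : 0 < x.2 - x.1 - k) :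
    KS S b o (rf k x) ≤ KS S b o x := by
  classical
  rw [KS_of_mem b ho (hS x hx), KS_of_mem b ho hx]
  let I : Finset (ℤ × ℤ) := S.filter fun u => 0 < u.2 - u.1 - k
  let K : Finset (ℤ × ℤ) := S.filter fun u => u.2 - u.1 - k = 0
  have hI : ∀ i : I, (i : ℤ × ℤ) ∈ S ∧ 0 < (i : ℤ × ℤ).2 - (i : ℤ × ℤ).1 - k :=
    fun i => Finset.mem_filter.1 i.2
  have hK : ∀ i : K, (i : ℤ × ℤ) ∈ S ∧ (i : ℤ × ℤ).2 - (i : ℤ × ℤ).1 - k = 0 :=
    fun i => Finset.mem_filter.1 i.2
  let e0 : (I ⊕ I) ⊕ K → S := fun u => match u with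
    | Sum.inl (Sum.inl i) => ⟨i, (hI i).1⟩
    | Sum.inl (Sum.inr i) => ⟨rf k i, hS _ (hI i).1⟩
    | Sum.inr j => ⟨j, (hK j).1⟩
  have hbij : Function.Bijective e0 := by
    constructor
    · rintro ((u | u) | u) ((v | v) | v) huv
      · have h := congrArg Subtype.val huv
        change (u : ℤ × ℤ) = v at h
        rw [Subtype.ext h]
      · have h := congrArg Subtype.val huv
        change (u : ℤ × ℤ) = rf k v at h
        have h1 := (hI u).2
        have h2 := (hI v).2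
        rw [h] at h1
        simp only [rf] at h1
        exfalso; omega
      · have h := congrArg Subtype.val huv
        change (u : ℤ × ℤ) = v at h
        have h1 := (hI u).2
        have h2 := (hK v).2
        rw [h] at h1
        exfalso; omega
      · have h := congrArg Subtype.val huv
        change rf k (u : ℤ × ℤ) = v at h
        have h1 := (hI u).2
        have h2 := (hI v).2
        rw [← h] at h2
        simp only [rf] at h2
        exfalso; omega
      · have h := congrArg Subtype.val huv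
        change rf k (u : ℤ × ℤ) = rf k v at h
        have h' := congrArg (rf k) h
        rw [rf_rf, rf_rf] at h'
        rw [Subtype.ext h']
      · have h := congrArg Subtype.val huv
        change rf k (u : ℤ × ℤ) = v at h
        have h1 := (hI u).2
        have h2 := (hK v).2
        rw [← h] at h2
        simp only [rf] at h2
        exfalso; omega
      · have h := congrArg Subtype.val huv
        change (u : ℤ × ℤ) = v at h
        have h1 := (hK u).2
        have h2 := (hI v).2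
        rw [← h] at h2
        exfalso; omega
      · have h := congrArg Subtype.val huv
        change (u : ℤ × ℤ) = rf k v at h
        have h1 := (hK u).2
        have h2 := (hI v).2
        rw [h] at h1
        simp only [rf] at h1
        exfalso; omega
      · have h := congrArg Subtype.val huv
        change (u : ℤ × ℤ) = v at h
        rw [Subtype.ext h]
    · rintro ⟨u, hu⟩
      rcases lt_trichotomy (u.2 - u.1 - k) 0 with h | h | h
      · refine ⟨Sum.inl (Sum.inr ⟨rf k u, Finset.mem_filter.2 ⟨hS u hu, ?_⟩⟩), ?_⟩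
        · simp only [rf]; omega
        · exact Subtype.ext (rf_rf k u)
      · exact ⟨Sum.inr ⟨u, Finset.mem_filter.2 ⟨hu, h⟩⟩, rfl⟩
      · exact ⟨Sum.inl (Sum.inl ⟨u, Finset.mem_filter.2 ⟨hu, h⟩⟩), rfl⟩
  let e := Equiv.ofBijective e0 hbij
  let J : ((I ⊕ I) ⊕ K) → ((I ⊕ I) ⊕ K) → ℝ := fun u v => b * A (e0 u) (e0 v)
  have hJ : ∀ u v, 0 ≤ J u v := fun u v => mul_nonneg hb (A_nonneg _ _)
  let o' : I := ⟨o, Finset.mem_filter.2 ⟨ho, hok⟩⟩
  let x' : I := ⟨x, Finset.mem_filter.2 ⟨hx, hxk⟩⟩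
  have c1 := corr_equiv e (J := J) (J' := fun u v : S => b * A u v) hJ (fun _ _ => rfl)
    (Sum.inl (Sum.inl o')) (Sum.inl (Sum.inr x'))
  have c2 := corr_equiv e (J := J) (J' := fun u v : S => b * A u v) hJ (fun _ _ => rfl)
    (Sum.inl (Sum.inl o')) (Sum.inl (Sum.inl x'))
  change XY.corr J _ _ = XY.corr (fun u v : S => b * A u v) ⟨o, ho⟩ ⟨rf k x, hS x hx⟩ at c1
  change XY.corr J _ _ = XY.corr (fun u v : S => b * A u v) ⟨o, ho⟩ ⟨x, hx⟩ at c2
  rw [← c1, ← c2]
  refine mms_finite hJ ?_ ?_ ?_ ?_ ?_ o' x'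
  · intro i j
    change b * A (rf k i) (rf k j) = b * A i j
    congr 1
    apply A_congr
    simp only [rf]
    omega
  · intro i j
    change b * A i (rf k j) = 0
    have h1 := (hI i).2
    have h2 := (hI j).2
    rw [A_eq, if_neg, mul_zero]
    simp only [rf]
    omega
  · intro i j
    change b * A (rf k i) j = 0
    have h1 := (hI i).2
    have h2 := (hI j).2
    rw [A_eq, if_neg, mul_zero]
    simp only [rf]
    omega
  · intro i j
    change b * A (rf k i) j = b * A i j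
    have h2 := (hK j).2
    congr 1
    apply A_congr
    simp only [rf]
    omega
  · intro i j
    change b * A j (rf k i) = b * A j i
    have h2 := (hK j).2
    congr 1
    apply A_congr
    simp only [rf]
    omega

/-- one diagonal step -/
theorem C_step {b : ℝ} (hb : 0 ≤ b) {x1 x2 : ℤ} (h : x2 ≤ x1) :
    C b (x1 + 1, x2 - 1) ≤ C b (x1, x2) := by
  classical
  unfold C CI
  refine ciSup_le fun R => ?_
  let k : ℤ := x2 - x1 - 1
  let S : Finset (ℤ × ℤ) := (box R ∪ {0, (x1, x2)}) ∪ (box R ∪ {0, (x1, x2)}).image (rf k)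
  have hS : ∀ u ∈ S, rf k u ∈ S := by
    intro u hu
    rcases Finset.mem_union.1 hu with hu | hu
    · exact Finset.mem_union_right _ (Finset.mem_image_of_mem _ hu)
    · obtain ⟨v, hv, rfl⟩ := Finset.mem_image.1 hu
      rw [rf_rf]
      exact Finset.mem_union_left _ hv
  have hrf : rf k (x1, x2) = (x1 + 1, x2 - 1) := by
    simp only [rf, k]; ext <;> simp only <;> ring
  have hx : (x1, x2) ∈ S := by simp [S]
  have h0 : (0 : ℤ × ℤ) ∈ S := by simp [S]
  have hsub : box R ⊆ S := fun u hu =>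
    Finset.mem_union_left _ (Finset.mem_union_left _ hu)
  calc KS (box R) b 0 (x1 + 1, x2 - 1) ≤ KS S b 0 (x1 + 1, x2 - 1) := KS_mono hsub hb _ _
    _ = KS S b 0 (rf k (x1, x2)) := by rw [hrf]
    _ ≤ KS S b 0 (x1, x2) := KS_rf hS hb h0 hx (by simp only [Prod.snd_zero, Prod.fst_zero, k]; omega)
        (by simp only [k]; omega)
    _ ≤ CI b 0 (x1, x2) := KS_le_CI S hb _ _

theorem C_axis_le_nat {b : ℝ} (hb : 0 ≤ b) (n : ℕ) : ∀ x1 : ℕ, n ≤ x1 →
    C b (((x1 + n : ℕ) : ℤ), 0) ≤ C b ((x1 : ℤ), (n : ℤ)) := by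
  induction n with
  | zero => intro x1 _; simp
  | succ n ih =>
    intro x1 h
    have h1 := ih (x1 + 1) (by omega)
    have h2 := C_step hb (x1 := (x1 : ℤ)) (x2 := ((n + 1 : ℕ) : ℤ)) (by omega)
    have e1 : ((x1 + (n + 1) : ℕ) : ℤ) = ((x1 + 1 + n : ℕ) : ℤ) := by push_cast; ring
    have e2 : (((x1 : ℤ) + 1, ((n + 1 : ℕ) : ℤ) - 1) : ℤ × ℤ) = (((x1 + 1 : ℕ) : ℤ), (n : ℤ)) := by
      ext <;> simp
    rw [e2] at h2
    rw [e1]
    exact h1.trans h2

/-- **Messager, Miracle-Sole**: the two point function at `(x1, x2)` is at least the two point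
function on the axis at distance `x1 + x2`. -/
theorem mms {b : ℝ} (hb : 0 ≤ b) (x1 x2 : ℕ) :
    Vale.Agent.P159.corrInf b (((x1 + x2 : ℕ) : ℤ), 0)
      ≤ Vale.Agent.P159.corrInf b ((x1 : ℤ), (x2 : ℤ)) := by
  rw [corrInf_eq hb, corrInf_eq hb]
  rcases le_total x2 x1 with h | h
  · exact C_axis_le_nat hb x2 x1 h
  · have h1 := C_axis_le_nat hb x1 x2 h
    rw [← C_swap hb ((x1 : ℤ), (x2 : ℤ)), add_comm x1 x2]
    exact h1

end Vale.Agent.P159.T1.H831
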